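import Vale.Agent.P171.Final

namespace Vale.Agent.Results.P171.Transition
open Vale.Agent.P171 MeasureTheory Filter Topology

theorem result : ∃ v : ℝ → ℝ, Measurable v ∧ (∃ M : ℝ, ∀ r, |v r| ≤ M) ∧
    Integrable (fun x : R3 => v ‖x‖) ∧ Stable v ∧ Tempered v ∧
    ∃ β : ℝ, 0 < β ∧
      (∀ L : ℝ, 0 ≤ L → ∀ N : ℕ,
        IntegrableOn (fun x : Fin N → R3 => Real.exp (-β * U v x)) (Conf L N)) ∧
      (∀ z : ℝ, 0 < z → ∀ L : ℝ, 0 ≤ L → Summable fun N : ℕ => z ^ N * Z v β L N) ∧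
      ∃ P : ℝ → ℝ,
        (∀ z : ℝ, 0 < z →
          Tendsto (fun L : ℝ => Real.log (Grand v β z L) / L ^ 3) atTop (𝓝 (P z))) ∧
        ∃ z₀ : ℝ, 0 < z₀ ∧ ¬ DifferentiableAt ℝ P z₀ := main

end Vale.Agent.Results.P171.Transition
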